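import Vale.Agent.Lib.P037.Symm

/-!
# Polynomial ordered removal for all 2x2 patterns with distinct rows and distinct columns

For each of the ten binary 2x2 patterns with two distinct rows and two distinct columns, a matrix
which is `ε`-far from `H`-free contains at least `c ε^C n^4` ordered copies of `H`, where
`c = 2^(-1680)` and `C = 204`.
-/

namespace Vale.Agent.Results.P037.TwoByTwo

open Vale.Agent.Lib.P037 Vale.Agent.Lib.P037.Defs

/-- Polynomial removal for the 2x2 patterns with distinct rows and distinct columns. -/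
theorem result : ∃ (c : ℝ) (C : ℕ), 0 < c ∧ ∀ H : Fin 2 → Fin 2 → Bool,
    H 0 ≠ H 1 → (fun i => H i 0) ≠ (fun i => H i 1) →
    ∀ n : ℕ, 1 ≤ n → ∀ ε : ℝ, 0 < ε → ε < 1 → ∀ A : Fin n → Fin n → Bool,
      IsFar H A ε → c * ε ^ C * (n : ℝ) ^ 4 ≤ (ordCopies H A : ℝ) :=
  ⟨(1 / 2) ^ 1680, 204, by positivity, fun H hrow hcol n hn ε h0 h1 A hfar =>
    removal_real (good_of_distinct H hrow hcol) n hn ε h0 h1 A hfar⟩

end Vale.Agent.Results.P037.TwoByTwo
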